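import Vale.Agent.P030.H992.C0Tr
import Vale.Agent.P030.H352.DiscR

/-!
# P030, route N: cusp `c0`, the transitions in the form of H352/DiscR and AR/NTop (helper992)
-/

open Matrix Set
open scoped ComplexConjugate

namespace Vale.Agent.P030.H992

open Vale.Agent.P030.H265 Vale.Agent.P030.AR Vale.Agent.P030.H787 Vale.Agent.P030.H580
open Vale.Agent.P030.H352 (Ar Qr BR Dz Ud tz adm Sr)
open Vale.Agent.P030.H639 (cj)

noncomputable section

theorem adm_eq (V : Matrix (Fin 8) (Fin 8) ℂ) :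
    adm Ar Qr V = Matrix.of fun i j => dK i * ad (fun a b => V a b) i j := by
  ext i j
  rw [H352.adm_apply]
  simp only [Fin.sum_univ_eight]
  fin_cases i <;> fin_cases j <;> simp [Ar, Qr, dK, ad, yc] <;> ring

theorem Dz0_eq (z : ℂ) : Dz 0 z = Dc0 (t0 z) := by
  have h := adm_eq (gl0 0 (t0 z))
  change frm (adm Ar Qr (gl0 0 (t0 z))) BR0z = _
  rw [h, frm_BR0z]
  rfl

theorem mem_Ud0 {z : ℂ} : z ∈ Ud 0 ↔ z ∈ V0 := by
  have h : z ∈ Ud 0 ↔ (yz z).re < 0 := Iff.rfl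
  rw [h, yz_re]
  constructor
  · intro h
    change 1 / 2 < z.re
    linarith
  · intro h
    have h' : 1 / 2 < z.re := h
    linarith

variable {X : Fin 8 → ℂ → Fin 8 → ℂ}

/-- **cusp `c0`, cell `F4` to disc** -/
theorem hC1_0 (hX : YD X) {z : ℂ} (hz : z ∈ OmP) (hv : z ∈ Ud 0) {b b' : Fin 8}
    (h : patc0 b b' = false) : TopN.tr (frm (Pz X z) BF4z) (Dz 0 z) b b' = 0 := by
  rw [Dz0_eq]
  exact zero_up hX hz (mem_Ud0.1 hv) h

/-- **cusp `c0`, disc to cell `F4`** -/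
theorem hC2_0 (hX : YD X) {z : ℂ} (hz : z ∈ OmP) (hv : z ∈ Ud 0) {b b' : Fin 8}
    (h : patc0 b b' = false) : TopN.tr (Dz 0 z) (frm (Pz X z) BF4z) b b' = 0 := by
  rw [Dz0_eq]
  exact zero_dn hX hz (mem_Ud0.1 hv) h

end

end Vale.Agent.P030.H992
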