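import Vale.Agent.P030.H992.C0Alg
import Vale.Agent.P030.H580.Vgl
import Vale.Agent.P030.AR.Flat
import Vale.Agent.P030.H639.N8b

/-!
# P030, route N: cusp `c0`, transitions between the cell `F4` (both half planes) and the disc
-/

open Matrix
open scoped ComplexConjugate

namespace Vale.Agent.P030.H992

open Vale.Agent.P030.H265 Vale.Agent.P030.AR Vale.Agent.P030.H787
open Vale.Agent.P030.H639 (cj cj_apply cj_mul frm_cj)

noncomputable section

/-- row coordinates -/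
def yc (x : Fin 8 → ℂ) : Fin 8 → ℂ := ![x 0, x 1, x 2, x 3 - x 4, x 5, x 4, x 6, x 7]

/-- the adapted matrix of eight flat vectors -/
def ad (V : Fin 8 → Fin 8 → ℂ) : Matrix (Fin 8) (Fin 8) ℂ :=
  Matrix.of ![yc (V 0), yc (V 1), yc (V 2), yc (V 3), yc (V 5), yc (V 3 + V 4), yc (V 6), yc (V 7)]

/-- the constants of `F4` -/
def BF4 : Matrix (Fin 8) (Fin 8) ℂ :=
  !![1, 0, 0, 0, 0, 0, 0, 0;
     0, 1, 0, 0, 0, 0, 0, 0;
     0, 0, 1, l2 / 2 - Complex.I * pc, l2 / 2, -(l2 / 2), 0, 0;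
     0, 0, 0, 1, 0, 0, 0, 0;
     0, 0, 0, 0, 1, 0, 0, -(1 / (4 * pc));
     0, 0, 0, 0, 0, 1, 3 * Complex.I / (2 * pc), 3 / (4 * pc);
     0, 0, 0, 0, 0, 0, 1, 0;
     0, 0, 0, 0, 0, 0, 0, 0]

/-- the real constants of the disc at `c0` (352's `BR 0`, `K`-columns w.r.t. `A0`, `A3`) -/
def BR0 : Matrix (Fin 8) (Fin 8) ℂ :=
  !![1, 0, 0, 0, 0, 0, 0, 0;
     0, 1, 0, 0, 0, 0, 0, 0;
     0, 0, 1, l2 / 2, l2 / 2, -(l2 / 2), 0, 0;
     0, 0, 0, 1, 0, 0, 0, 0;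
     0, 0, 0, 0, 1, 0, 0, -(1 / (4 * pc));
     0, 0, 0, 0, 0, 1, 0, 3 / (4 * pc);
     0, 0, 0, 0, 0, 0, 1, 0;
     0, 0, 0, 0, 0, 0, 0, 0]

theorem gl0_row2 (T t : ℂ) : gl0 T t 2 = gl0 0 t 2 + T • gl0 0 t 3 := by
  simp [gl0]

theorem gl0_row7 (T t : ℂ) : gl0 T t 7 = gl0 0 t 7 - (2 / pc * T) • gl0 0 t 6 := by
  have hp := pc_ne
  simp only [gl0, Fin.isValue]
  ext j
  simp
  field_simp
  ring

theorem gl0_row (T t : ℂ) {i : Fin 8} (h2 : i ≠ 2) (h7 : i ≠ 7) : gl0 T t i = gl0 0 t i := by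
  revert h2 h7
  fin_cases i <;> simp [gl0]

theorem ad_apply_gl0 (T t : ℂ) (i j : Fin 8) : ad (gl0 T t) i j = ad (gl0 0 t) i j +
    ((if i = 2 then T * ad (gl0 0 t) 3 j else 0) +
      if i = 7 then -(2 / pc * T) * ad (gl0 0 t) 6 j else 0) := by
  have h2 := gl0_row2 T t
  have h7 := gl0_row7 T t
  have h0 := gl0_row T t (i := 0) (by decide) (by decide)
  have h1 := gl0_row T t (i := 1) (by decide) (by decide)
  have h3 := gl0_row T t (i := 3) (by decide) (by decide)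
  have h4 := gl0_row T t (i := 4) (by decide) (by decide)
  have h5 := gl0_row T t (i := 5) (by decide) (by decide)
  have h6 := gl0_row T t (i := 6) (by decide) (by decide)
  unfold ad
  rw [h0, h1, h2, h3, h4, h5, h6, h7]
  generalize gl0 0 t = G
  fin_cases i <;> fin_cases j <;> simp [yc] <;> ring

/-- the germs at `c0` are real -/
theorem conj_gl0 (T t : ℂ) (i j : Fin 8) : conj (gl0 T t i j) = gl0 (conj T) (conj t) i j := by
  fin_cases i
  · simp [gl0, conj_tupC, conj_l2]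
  · simp [gl0, conj_tupC]
  · simp only [gl0, dv]
    simp [conj_evt, Pi.single_apply]
    split_ifs <;> simp
  · simp [gl0, dv, Pi.single_apply]
  · simp [gl0, gv, Pi.single_apply]
  · simp [gl0, hv, Pi.single_apply]
  · simp [gl0, conj_tupC, conj_pc, Complex.conj_ofNat]
  · simp [gl0, conj_tupC, conj_evt, conj_l2, Complex.conj_ofNat]

theorem cj_ad (V : Fin 8 → Fin 8 → ℂ) : cj (ad V) = ad fun i j => conj (V i j) := by
  ext i j
  rw [cj_apply]
  fin_cases i <;> fin_cases j <;> simp [ad, yc]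

/-- the last `K` solution does not vanish -/
theorem sumK {P P' B : Matrix (Fin 8) (Fin 8) ℂ} (h66 : B 6 6 = 1)
    (h67 : B 6 7 = 0) (h : ∀ j, P 6 j = P' 6 j) :
    kT P (B 6 6) (B 6 7) / kF P (B 6 6) (B 6 7) = kT P' 1 0 / kF P' 1 0 := by
  simp [kT, kF, h66, h67, h]


/-- **cell `F4`, upper half plane, in terms of the disc** -/
theorem up0 (T t : ℂ) (hκ : gl0 0 t 6 6 ≠ 0) :
    frm (ad (gl0 T t)) BF4 = Mt (T - Complex.I * pc) (T / (2 * pc ^ 2) * gl0 0 t 6 6)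
      ((-(3 * T / (2 * pc ^ 2)) + 3 * Complex.I / (2 * pc)) * gl0 0 t 6 6) *
        frm (ad (gl0 0 t)) BR0 := by
  have hp := pc_ne
  have key := ad_apply_gl0 T t
  have h6 : ∀ j : Fin 8, j < 6 → ad (gl0 0 t) 6 j = 0 := by
    intro j hj
    have hj' : j = 0 ∨ j = 1 ∨ j = 2 ∨ j = 3 ∨ j = 4 ∨ j = 5 := by omega
    rcases hj' with rfl | rfl | rfl | rfl | rfl | rfl <;>
      simp [ad, yc, gl0, tupC, Vale.Agent.P030.T.tup0, Vale.Agent.P030.T.tup1, evq_zero]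
  have h66 : ad (gl0 0 t) 6 6 = gl0 0 t 6 6 := by simp [ad, yc]
  generalize ad (gl0 T t) = P at *
  generalize ad (gl0 0 t) = G at *
  have r0 : ∀ j, P 0 j = G 0 j := fun j => by rw [key]; simp
  have r1 : ∀ j, P 1 j = G 1 j := fun j => by rw [key]; simp
  have r2 : ∀ j, P 2 j = G 2 j + T * G 3 j := fun j => by rw [key]; simp
  have r3 : ∀ j, P 3 j = G 3 j := fun j => by rw [key]; simp
  have r4 : ∀ j, P 4 j = G 4 j := fun j => by rw [key]; simp
  have r5 : ∀ j, P 5 j = G 5 j := fun j => by rw [key]; simp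
  have r6 : ∀ j, P 6 j = G 6 j := fun j => by rw [key]; simp
  have r7 : ∀ j, P 7 j = G 7 j + -(2 / pc * T) * G 6 j := fun j => by rw [key]; simp
  refine frm_eq_Mt (B' := BR0) ?_ ?_ h6 rfl rfl h66 hκ ?_
  · intro b hb j
    simp only [Fin.sum_univ_eight, r0, r1, r2, r3, r4, r5, r6, r7]
    have hb' : b = 0 ∨ b = 1 ∨ b = 2 ∨ b = 3 ∨ b = 4 ∨ b = 5 := by omega
    rcases hb' with rfl | rfl | rfl | rfl | rfl | rfl
    · simp [BF4, BR0]
    · simp [BF4, BR0]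
    · simp [BF4, BR0]; ring
    · simp [BF4, BR0]
    · simp [BF4, BR0]; field_simp; ring
    · simp [BF4, BR0]; field_simp; ring
  · intro i
    fin_cases i <;> simp [BR0]
  · exact sumK rfl rfl r6

theorem cj_gl0 (T t : ℂ) : cj (ad (gl0 T t)) = ad (gl0 (conj T) (conj t)) := by
  rw [cj_ad]
  congr 1
  funext i j
  exact conj_gl0 T t i j

theorem cj_BR0 : cj BR0 = BR0 := by
  ext i j
  rw [cj_apply]
  fin_cases i <;> fin_cases j <;> simp [BR0, conj_l2, conj_pc, Complex.conj_ofNat]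

/-- the disc frame is real -/
theorem cj_S0 (t : ℂ) : cj (frm (ad (gl0 0 (conj t))) BR0) = frm (ad (gl0 0 t)) BR0 := by
  rw [← frm_cj, cj_gl0, cj_BR0, map_zero, Complex.conj_conj]

theorem cj_Mt (a p q : ℂ) : cj (Mt a p q) = Mt (conj a) (conj p) (conj q) := by
  ext i j
  rw [cj_apply]
  fin_cases i <;> fin_cases j <;> simp [Mt]

/-- **the mirror of `F4`, in terms of the disc** -/
theorem mir0 (T t : ℂ) (hκ : gl0 0 t 6 6 ≠ 0) :
    cj (frm (ad (gl0 (conj T) (conj t))) BF4) =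
      Mt (T + Complex.I * pc) (T / (2 * pc ^ 2) * gl0 0 t 6 6)
        ((-(3 * T / (2 * pc ^ 2)) - 3 * Complex.I / (2 * pc)) * gl0 0 t 6 6) *
          frm (ad (gl0 0 t)) BR0 := by
  have hc : conj (gl0 0 (conj t) 6 6) = gl0 0 t 6 6 := by
    rw [conj_gl0]; simp
  have hκ' : gl0 0 (conj t) 6 6 ≠ 0 := by
    intro h
    rw [h, map_zero] at hc
    exact hκ hc.symm
  rw [up0 _ _ hκ', cj_mul, cj_Mt, cj_S0]
  congr 1
  simp only [map_mul, map_sub, map_add, hc, map_div₀, map_neg, Complex.conj_conj, map_pow,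
    conj_pc, Complex.conj_ofNat, Complex.conj_I]
  congr 1 <;> ring

end

end Vale.Agent.P030.H992
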