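import Vale.Agent.P030.H265.FrameAlg

/-!
# P030, route N: the transition matrices at the cusp `c0`, pointwise algebra (helper992)

`Mt a p q` = the identity plus `a` at `(2,3)`, `p` at `(4,6)`, `q` at `(5,6)`; its inverse is
`Mt (-a) (-p) (-q)`.
-/

open Matrix

namespace Vale.Agent.P030.H992

open Vale.Agent.P030.H265

/-- the transition matrices at `c0` -/
def Mt (a p q : ℂ) : Matrix (Fin 8) (Fin 8) ℂ :=
  !![1, 0, 0, 0, 0, 0, 0, 0;
     0, 1, 0, 0, 0, 0, 0, 0;
     0, 0, 1, a, 0, 0, 0, 0;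
     0, 0, 0, 1, 0, 0, 0, 0;
     0, 0, 0, 0, 1, 0, p, 0;
     0, 0, 0, 0, 0, 1, q, 0;
     0, 0, 0, 0, 0, 0, 1, 0;
     0, 0, 0, 0, 0, 0, 0, 1]

/-- the pattern of the transitions at `c0` (levels counted from `0`) -/
def pat0 (b c : Fin 8) : Bool :=
  (b == 2 && c == 3) || (b == 4 && c == 6) || (b == 5 && c == 6)

theorem Mt_zero (a p q : ℂ) {b c : Fin 8} (hbc : b ≠ c) (h : pat0 b c = false) :
    Mt a p q b c = 0 := by
  revert h hbc
  fin_cases b <;> fin_cases c <;> simp [Mt, pat0]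

theorem Mt_mul (a p q a' p' q' : ℂ) :
    Mt a p q * Mt a' p' q' = Mt (a + a') (p + p') (q + q') := by
  ext i j
  fin_cases i <;> fin_cases j <;>
    simp [Mt, Matrix.mul_apply, Fin.sum_univ_eight, add_comm]

theorem Mt_zero_zero : Mt 0 0 0 = 1 := by
  ext i j
  fin_cases i <;> fin_cases j <;> simp [Mt]

/-- two frames whose rows differ in the pattern -/
theorem frm_eq_Mt {P P' B B' : Matrix (Fin 8) (Fin 8) ℂ} {a p q κ : ℂ}
    (h : ∀ b : Fin 8, b < 6 → ∀ j, ∑ i, B b i * P i j = (∑ i, B' b i * P' i j) +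
      ((if b = 2 then a * P' 3 j else 0) + ((if b = 4 then p * P' 6 j else 0) +
        if b = 5 then q * P' 6 j else 0)))
    (hB3 : ∀ i, B' 3 i = if i = 3 then 1 else 0)
    (hP6 : ∀ j : Fin 8, j < 6 → P' 6 j = 0) (hB66 : B' 6 6 = 1) (hB67 : B' 6 7 = 0)
    (hκ : P' 6 6 = κ) (hκ0 : κ ≠ 0)
    (hK : kT P (B 6 6) (B 6 7) / kF P (B 6 6) (B 6 7) = kT P' 1 0 / kF P' 1 0) :
    frm P B = Mt a (p * κ) (q * κ) * frm P' B' := by
  have h3 : ∀ j, frm P' B' 3 j = P' 3 j := by
    intro j
    rw [frm_lt (by decide)]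
    simp [hB3]
  have h6 : ∀ j, κ * frm P' B' 6 j = P' 6 j := by
    intro j
    rw [frm_six, hB66, hB67]
    have e1 : kF P' 1 0 = κ := by simp [kF, hκ]
    have e2 : kT P' 1 0 = P' 6 7 := by simp [kT]
    rw [e1, e2]
    by_cases hj : j < 6
    · have h6' : j ≠ 6 := hj.ne
      have h7' : j ≠ 7 := by rintro rfl; exact absurd hj (by decide)
      rw [hP6 j hj]
      simp [h6', h7']
    · have : j = 6 ∨ j = 7 := by omega
      rcases this with rfl | rfl
      · simp [hκ]
      · have h67 : (7 : Fin 8) ≠ 6 := by decide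
        simp [h67]
        field_simp
  have hrow : ∀ b : Fin 8, b < 6 → ∀ j, ∑ i, B' b i * P' i j = frm P' B' b j := by
    intro b hb j
    rw [frm_lt hb]
  ext b j
  rw [Matrix.mul_apply, Fin.sum_univ_eight]
  fin_cases b
  · have := h 0 (by decide) j
    rw [hrow 0 (by decide)] at this
    simp only [Fin.zero_eta, Fin.isValue]
    rw [frm_lt (by decide), this]
    simp [Mt]
  · have := h 1 (by decide) j
    rw [hrow 1 (by decide)] at this
    simp only [Fin.mk_one, Fin.isValue]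
    rw [frm_lt (by decide), this]
    simp [Mt]
  · have := h 2 (by decide) j
    rw [hrow 2 (by decide)] at this
    simp only [Fin.reduceFinMk, Fin.isValue]
    rw [frm_lt (by decide), this, ← h3]
    simp [Mt]
  · have := h 3 (by decide) j
    rw [hrow 3 (by decide)] at this
    simp only [Fin.reduceFinMk, Fin.isValue]
    rw [frm_lt (by decide), this]
    simp [Mt]
  · have := h 4 (by decide) j
    rw [hrow 4 (by decide)] at this
    simp only [Fin.reduceFinMk, Fin.isValue]
    rw [frm_lt (by decide), this, ← h6]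
    simp [Mt, mul_assoc]
  · have := h 5 (by decide) j
    rw [hrow 5 (by decide)] at this
    simp only [Fin.reduceFinMk, Fin.isValue]
    rw [frm_lt (by decide), this, ← h6]
    simp [Mt, mul_assoc]
  · simp only [Fin.reduceFinMk, Fin.isValue]
    have e6 : frm P B 6 = frm P' B' 6 := by
      rw [frm_six, frm_six, hK, hB66, hB67]
    rw [e6]
    simp [Mt]
  · simp only [Fin.reduceFinMk, Fin.isValue]
    rw [frm_seven, ← frm_seven P' B']
    simp [Mt]

/-- the two directions of the transition -/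
theorem trans_of_Mt {S S' : Matrix (Fin 8) (Fin 8) ℂ} {a p q : ℂ} (h : S = Mt a p q * S')
    (hS : IsUnit S.det) (hS' : IsUnit S'.det) (b c : Fin 8) :
    (S b ᵥ* S'⁻¹) c = Mt a p q b c ∧ (S' b ᵥ* S⁻¹) c = Mt (-a) (-p) (-q) b c := by
  have h' : S' = Mt (-a) (-p) (-q) * S := by
    rw [h, ← Matrix.mul_assoc, Mt_mul]
    simp [Mt_zero_zero]
  constructor
  · have e : S b = Mt a p q b ᵥ* S' := by
      conv_lhs => rw [h]
      rfl
    rw [expand_unique hS' e]
  · have e : S' b = Mt (-a) (-p) (-q) b ᵥ* S := by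
      conv_lhs => rw [h']
      rfl
    rw [expand_unique hS e]

end Vale.Agent.P030.H992
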