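import Vale.Agent.P030.H992.C0
import Vale.Agent.P030.H265.Flat
import Vale.Agent.P030.H352.Disc

/-!
# P030, route N: the cusp disc `c0` in the `S`-plane (helper992)

`Dc0 t` = the disc frame (real rows `e, a, c^, d, X2^, d+g+(3/4)A3/π, A0-line, e_T`), holomorphic in
`|t| < 1`.  On the overlap of the cell `F4` (upper half plane, and its mirror) with `re z > 1/2`
(i.e. `|t| < 1`, `t = tY 0 (yz z)`, `T = TY 0 (yz z)`):
`frm (Pz X z) BF4z = Mt (T - iπ) (T κ/(2π²)) ((-3T/(2π²) + 3i/(2π)) κ) * Dc0 t`.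
-/

open Matrix Set
open scoped ComplexConjugate

namespace Vale.Agent.P030.H992

open Vale.Agent.P030.H265 Vale.Agent.P030.AR Vale.Agent.P030.H787 Vale.Agent.P030.H580
open Vale.Agent.P030.H152
open Vale.Agent.P030.H639 (cj cj_apply cj_mul frm_cj)

noncomputable section

/-! ### generic -/

/-- rescaling of the rows -/
theorem frm_diag (d : Fin 8 → ℂ) (P B : Matrix (Fin 8) (Fin 8) ℂ) :
    frm (Matrix.of fun i j => d i * P i j) B = frm P (Matrix.of fun b i => B b i * d i) := by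
  ext b c
  by_cases h7 : b = 7
  · subst h7
    rw [frm_seven, frm_seven]
  by_cases h6 : b = 6
  · subst h6
    rw [frm_six, frm_six]
    simp [kT, kF, mul_assoc]
  · have hb : b < 6 := by omega
    rw [frm_lt hb, frm_lt hb]
    refine Finset.sum_congr rfl fun i _ => ?_
    simp only [Matrix.of_apply]
    ring

/-- only the `K`-line matters in row `6` -/
theorem frm_line {P B B' : Matrix (Fin 8) (Fin 8) ℂ} {l : ℂ} (hl : l ≠ 0)
    (h : ∀ b : Fin 8, b < 6 → B b = B' b) (h6 : B 6 6 = l * B' 6 6) (h7 : B 6 7 = l * B' 6 7) :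
    frm P B = frm P B' := by
  ext b c
  by_cases e7 : b = 7
  · subst e7
    rw [frm_seven, frm_seven]
  by_cases e6 : b = 6
  · subst e6
    rw [frm_six, frm_six]
    have e1 : kT P (B 6 6) (B 6 7) = l * kT P (B' 6 6) (B' 6 7) := by
      rw [h6, h7]; simp only [kT]; ring
    have e2 : kF P (B 6 6) (B 6 7) = l * kF P (B' 6 6) (B' 6 7) := by
      rw [h6, h7]; simp only [kF]; ring
    rw [e1, e2, mul_div_mul_left _ _ hl]
  · have hb : b < 6 := by omega
    rw [frm_lt hb, frm_lt hb, h b hb]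

/-- the scaling of the `K` rows -/
def dK : Fin 8 → ℂ := ![1, 1, 1, 1, 1, 1, 1 / pc, 1 / pc]

theorem Pz_eq (X : Fin 8 → ℂ → Fin 8 → ℂ) (z : ℂ) :
    Pz X z = Matrix.of fun i j => dK i * ad (fun k => X k (yz z)) i j := by
  ext i j
  fin_cases i <;> fin_cases j <;> simp [Pz, colY, rowX, dK, ad, yc, mul_sub]

/-- the constants of `F4` in the rows `e, a, c, d, h, d+g, A0/π, A3/π` -/
def BF4z : Matrix (Fin 8) (Fin 8) ℂ :=
  !![1, 0, 0, 0, 0, 0, 0, 0;
     0, 1, 0, 0, 0, 0, 0, 0;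
     0, 0, 1, l2 / 2 - Complex.I * pc, l2 / 2, -(l2 / 2), 0, 0;
     0, 0, 0, 1, 0, 0, 0, 0;
     0, 0, 0, 0, 1, 0, 0, -(1 / 4);
     0, 0, 0, 0, 0, 1, 3 * Complex.I / 2, 3 / 4;
     0, 0, 0, 0, 0, 0, 1, 0;
     0, 0, 0, 0, 0, 0, 0, 0]

/-- the constants of the disc in the rows `e, a, c, d, h, d+g, A0/π, A3/π` -/
def BR0z : Matrix (Fin 8) (Fin 8) ℂ :=
  !![1, 0, 0, 0, 0, 0, 0, 0;
     0, 1, 0, 0, 0, 0, 0, 0;
     0, 0, 1, l2 / 2, l2 / 2, -(l2 / 2), 0, 0;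
     0, 0, 0, 1, 0, 0, 0, 0;
     0, 0, 0, 0, 1, 0, 0, -(1 / 4);
     0, 0, 0, 0, 0, 1, 0, 3 / 4;
     0, 0, 0, 0, 0, 0, 1, 0;
     0, 0, 0, 0, 0, 0, 0, 0]

theorem frm_BF4z (P : Matrix (Fin 8) (Fin 8) ℂ) :
    frm (Matrix.of fun i j => dK i * P i j) BF4z = frm P BF4 := by
  have hp := pc_ne
  rw [frm_diag]
  refine frm_line (l := 1 / pc) (one_div_ne_zero hp) (fun b hb => ?_) ?_ ?_
  · ext i
    have hb' : b = 0 ∨ b = 1 ∨ b = 2 ∨ b = 3 ∨ b = 4 ∨ b = 5 := by omega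
    rcases hb' with rfl | rfl | rfl | rfl | rfl | rfl <;> fin_cases i <;>
      simp [BF4z, BF4, dK] <;> field_simp
  · simp [BF4z, BF4, dK]
  · simp [BF4z, BF4, dK]

theorem frm_BR0z (P : Matrix (Fin 8) (Fin 8) ℂ) :
    frm (Matrix.of fun i j => dK i * P i j) BR0z = frm P BR0 := by
  have hp := pc_ne
  rw [frm_diag]
  refine frm_line (l := 1 / pc) (one_div_ne_zero hp) (fun b hb => ?_) ?_ ?_
  · ext i
    have hb' : b = 0 ∨ b = 1 ∨ b = 2 ∨ b = 3 ∨ b = 4 ∨ b = 5 := by omega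
    rcases hb' with rfl | rfl | rfl | rfl | rfl | rfl <;> fin_cases i <;>
      simp [BR0z, BR0, dK] <;> field_simp
  · simp [BR0z, BR0, dK]
  · simp [BR0z, BR0, dK]

theorem fin6 {b : Fin 8} (hb : b < 6) : b = 0 ∨ b = 1 ∨ b = 2 ∨ b = 3 ∨ b = 4 ∨ b = 5 := by
  omega

theorem cst_BF4z : Cst BF4z := by
  refine ⟨fun i j hi hj => ?_, fun i hi => ?_, fun j hj => ?_⟩
  · rcases fin6 hi with rfl | rfl | rfl | rfl | rfl | rfl <;> fin_cases j <;>
      first
        | exact absurd hj (by decide)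
        | simp [BF4z]
  · rcases fin6 hi with rfl | rfl | rfl | rfl | rfl | rfl <;> simp [BF4z]
  · rcases fin6 hj with rfl | rfl | rfl | rfl | rfl | rfl <;> simp [BF4z]

theorem cst_BR0 : Cst BR0 := by
  refine ⟨fun i j hi hj => ?_, fun i hi => ?_, fun j hj => ?_⟩
  · rcases fin6 hi with rfl | rfl | rfl | rfl | rfl | rfl <;> fin_cases j <;>
      first
        | exact absurd hj (by decide)
        | simp [BR0]
  · rcases fin6 hi with rfl | rfl | rfl | rfl | rfl | rfl <;> simp [BR0]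
  · rcases fin6 hj with rfl | rfl | rfl | rfl | rfl | rfl <;> simp [BR0]

theorem cst_BR0z : Cst BR0z := by
  refine ⟨fun i j hi hj => ?_, fun i hi => ?_, fun j hj => ?_⟩
  · rcases fin6 hi with rfl | rfl | rfl | rfl | rfl | rfl <;> fin_cases j <;>
      first
        | exact absurd hj (by decide)
        | simp [BR0z]
  · rcases fin6 hi with rfl | rfl | rfl | rfl | rfl | rfl <;> simp [BR0z]
  · rcases fin6 hj with rfl | rfl | rfl | rfl | rfl | rfl <;> simp [BR0z]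

theorem adap_ad0 (T t : ℂ) : Adap (ad (gl0 T t)) := by
  obtain ⟨e00, e10, e11, e20, e21, e22⟩ := gl0_ent T t
  have e3 := fun j => (gl0_const T t j).1
  have e4 := fun j => (gl0_const T t j).2.1
  have e5 := fun j => (gl0_const T t j).2.2
  have e6 := fun j hj => (gl0_K T t j hj).1
  have e7 := fun j hj => (gl0_K T t j hj).2
  refine ⟨?_, ?_, ?_, ?_⟩
  · intro i j hi hji
    rcases fin6 hi with rfl | rfl | rfl | rfl | rfl | rfl <;> fin_cases j <;>
      first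
        | exact absurd hji (by decide)
        | simp [ad, yc, e10, e20, e21, e3, e4, e5, dv, gv, hv]
  · intro i hi
    rcases fin6 hi with rfl | rfl | rfl | rfl | rfl | rfl <;>
      simp [ad, yc, e00, e11, e22, e3, e4, e5, dv, gv, hv]
  · intro j hj
    have z0 := e6 0 (by decide)
    have z1 := e6 1 (by decide)
    have z2 := e6 2 (by decide)
    have z3 := e6 3 (by decide)
    have z4 := e6 4 (by decide)
    have z5 := e6 5 (by decide)
    rcases fin6 hj with rfl | rfl | rfl | rfl | rfl | rfl <;>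
      simp [ad, yc, z0, z1, z2, z3, z4, z5]
  · intro j hj
    have z0 := e7 0 (by decide)
    have z1 := e7 1 (by decide)
    have z2 := e7 2 (by decide)
    have z3 := e7 3 (by decide)
    have z4 := e7 4 (by decide)
    have z5 := e7 5 (by decide)
    rcases fin6 hj with rfl | rfl | rfl | rfl | rfl | rfl <;>
      simp [ad, yc, z0, z1, z2, z3, z4, z5]

/-! ### the disc frame -/

/-- **the disc frame at `c0`** -/
def Dc0 (t : ℂ) : Matrix (Fin 8) (Fin 8) ℂ := frm (ad (gl0 0 t)) BR0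

theorem Dc0_unitri (t : ℂ) : Unitri (Dc0 t) := frm_unitri (adap_ad0 0 t) cst_BR0

theorem Dc0_isUnit (t : ℂ) : IsUnit (Dc0 t).det := (Dc0_unitri t).isUnit

/-- `F`-component of `A0` on the disc -/
def kp0 (t : ℂ) : ℂ := gl0 0 t 6 6

theorem kp0_ne {t : ℂ} (ht : ‖t‖ < 1) : kp0 t ≠ 0 := by
  have h := H352.kap_ne 0 ht fun h => absurd h (by decide)
  exact h

theorem Dc0_lt {b : Fin 8} (hb : b < 6) (t : ℂ) (j : Fin 8) :
    Dc0 t b j = ∑ i, BR0 b i * ad (gl0 0 t) i j := frm_lt hb j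

theorem Dc0_six (t : ℂ) : Dc0 t 6 = Pi.single 6 1 + (gl0 0 t 6 7 / gl0 0 t 6 6) •
    Pi.single 7 1 := by
  unfold Dc0
  rw [frm_six]
  simp [kT, kF, BR0, ad, yc]

theorem Dc0_seven (t : ℂ) : Dc0 t 7 = Pi.single 7 1 := frm_seven _ _

/-- reality -/
theorem Dc0_cj (t : ℂ) : cj (Dc0 (conj t)) = Dc0 t := cj_S0 t

theorem Dc0_conj (t : ℂ) (b c : Fin 8) : Dc0 (conj t) b c = conj (Dc0 t b c) := by
  have h := congrFun (congrFun (Dc0_cj (conj t)) b) c
  rw [Complex.conj_conj, cj_apply] at h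
  exact h.symm

theorem diff_ad0 {S : Set ℂ} {τ : ℂ → ℂ} (ht : DifferentiableOn ℂ τ S)
    (hS : ∀ u ∈ S, ‖τ u‖ < 1) (i j : Fin 8) :
    DifferentiableOn ℂ (fun u => ad (gl0 0 (τ u)) i j) S := by
  have h : ∀ i j, DifferentiableOn ℂ (fun u => gl0 0 (τ u) i j) S :=
    diff_gl0 (differentiableOn_const 0) ht hS
  have hr : ∀ i j, DifferentiableOn ℂ (fun u => yc (gl0 0 (τ u) i) j) S := by
    intro i j
    fin_cases j
    · exact h i 0
    · exact h i 1
    · exact h i 2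
    · exact (h i 3).sub (h i 4)
    · exact h i 5
    · exact h i 4
    · exact h i 6
    · exact h i 7
  have hr2 : ∀ j, DifferentiableOn ℂ (fun u => yc (gl0 0 (τ u) 3 + gl0 0 (τ u) 4) j) S := by
    intro j
    fin_cases j
    · exact (h 3 0).add (h 4 0)
    · exact (h 3 1).add (h 4 1)
    · exact (h 3 2).add (h 4 2)
    · exact ((h 3 3).add (h 4 3)).sub ((h 3 4).add (h 4 4))
    · exact (h 3 5).add (h 4 5)
    · exact (h 3 4).add (h 4 4)
    · exact (h 3 6).add (h 4 6)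
    · exact (h 3 7).add (h 4 7)
  fin_cases i
  · exact hr 0 j
  · exact hr 1 j
  · exact hr 2 j
  · exact hr 3 j
  · exact hr 5 j
  · exact hr2 j
  · exact hr 6 j
  · exact hr 7 j

/-- **the disc frame is holomorphic** -/
theorem Dc0_diff {S : Set ℂ} {τ : ℂ → ℂ} (ht : DifferentiableOn ℂ τ S)
    (hS : ∀ u ∈ S, ‖τ u‖ < 1) (b j : Fin 8) : DifferentiableOn ℂ (fun u => Dc0 (τ u) b j) S := by
  by_cases hb : b < 6
  · simp only [Dc0_lt hb]
    exact DifferentiableOn.fun_sum fun i _ => (diff_ad0 ht hS i j).const_mul _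
  · have : b = 6 ∨ b = 7 := by omega
    rcases this with rfl | rfl
    · simp only [Dc0_six, Pi.add_apply, Pi.smul_apply, smul_eq_mul]
      refine (differentiableOn_const _).add (DifferentiableOn.mul_const ?_ _)
      exact (diff_gl0 (differentiableOn_const 0) ht hS 6 7).div
        (diff_gl0 (differentiableOn_const 0) ht hS 6 6) fun u hu => kp0_ne (hS u hu)
    · simp only [Dc0_seven]
      exact differentiableOn_const _

/-! ### the `S`-plane -/

/-- the disc in the `S`-plane -/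
def V0 : Set ℂ := {z | 1 / 2 < z.re}

theorem isOpen_V0 : IsOpen V0 := isOpen_lt continuous_const Complex.continuous_re

/-- the local parameter -/
def t0 (z : ℂ) : ℂ := tY 0 (yz z)

theorem t0_eq (z : ℂ) (hz : z ≠ 0) : t0 z = (z - 1) / z := by
  change (yz z + 1) / (yz z - 1) = _
  unfold yz
  field_simp
  ring

theorem yz_re_neg {z : ℂ} (hz : z ∈ V0) : (yz z).re < 0 := by
  have : 1 / 2 < z.re := hz
  rw [yz_re]
  linarith

theorem norm_t0_lt {z : ℂ} (hz : z ∈ V0) : ‖t0 z‖ < 1 := norm_uy_lt (yz_re_neg hz)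

theorem t0_diff : DifferentiableOn ℂ t0 V0 := by
  have h1 : DifferentiableOn ℂ (fun z : ℂ => (z - 1) / z) V0 := by
    refine DifferentiableOn.div (by fun_prop) (by fun_prop) fun z hz h => ?_
    have : 1 / 2 < z.re := hz
    rw [h] at this
    norm_num at this
  refine h1.congr fun z hz => t0_eq z ?_
  rintro rfl
  have : (1 : ℝ) / 2 < (0 : ℂ).re := hz
  norm_num at this

theorem t0_conj (z : ℂ) : t0 (conj z) = conj (t0 z) := by
  unfold t0
  rw [yz_conj]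
  exact uy_conj _

theorem conj_mem_V0 {z : ℂ} : conj z ∈ V0 ↔ z ∈ V0 := by simp [V0]

theorem Dz0_diff (b c : Fin 8) : DifferentiableOn ℂ (fun z => Dc0 (t0 z) b c) V0 :=
  Dc0_diff t0_diff (fun _ hz => norm_t0_lt hz) b c

theorem Dz0_conj (z : ℂ) (b c : Fin 8) : Dc0 (t0 (conj z)) b c = conj (Dc0 (t0 z) b c) := by
  rw [t0_conj, Dc0_conj]

variable {X : Fin 8 → ℂ → Fin 8 → ℂ}

theorem mem_RY0 {z : ℂ} (hz : z ∈ OmP) (hv : z ∈ V0) : yz z ∈ RY 0 := by
  refine ⟨yz_re_neg hv, ?_⟩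
  rcases (show yz z ∈ OmY from hz) with h | h
  · exact Or.inl h
  · exact Or.inr h.1

/-- the transition matrix of the upper cell at `c0` -/
def M0 (T t : ℂ) : Matrix (Fin 8) (Fin 8) ℂ :=
  Mt (T - Complex.I * pc) (T / (2 * pc ^ 2) * kp0 t)
    ((-(3 * T / (2 * pc ^ 2)) + 3 * Complex.I / (2 * pc)) * kp0 t)

/-- its inverse -/
def M0' (T t : ℂ) : Matrix (Fin 8) (Fin 8) ℂ :=
  Mt (-(T - Complex.I * pc)) (-(T / (2 * pc ^ 2) * kp0 t))
    (-((-(3 * T / (2 * pc ^ 2)) + 3 * Complex.I / (2 * pc)) * kp0 t))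

/-- **factorisation of the upper frame** -/
theorem up_c0 (hX : YD X) {z : ℂ} (hz : z ∈ OmP) (hv : z ∈ V0) :
    frm (Pz X z) BF4z = M0 (TY 0 (yz z)) (t0 z) * Dc0 (t0 z) := by
  rw [Pz_eq, frm_BF4z]
  have h : (fun k => X k (yz z)) = gl0 (TY 0 (yz z)) (t0 z) := by
    funext k
    exact hX.cusp 0 k (yz z) (mem_RY0 hz hv)
  rw [h]
  exact up0 _ _ (kp0_ne (norm_t0_lt hv))

theorem F4z_isUnit (hX : YD X) {z : ℂ} (hz : z ∈ OmP) : IsUnit (frm (Pz X z) BF4z).det :=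
  Unitri.isUnit (frm_unitri (Pz_adap hX hz) cst_BF4z)

/-- the entries of the transitions -/
theorem ent_c0 (hX : YD X) {z : ℂ} (hz : z ∈ OmP) (hv : z ∈ V0) (b c : Fin 8) :
    (frm (Pz X z) BF4z b ᵥ* (Dc0 (t0 z))⁻¹) c = M0 (TY 0 (yz z)) (t0 z) b c ∧
      (Dc0 (t0 z) b ᵥ* (frm (Pz X z) BF4z)⁻¹) c = M0' (TY 0 (yz z)) (t0 z) b c :=
  trans_of_Mt (up_c0 hX hz hv) (F4z_isUnit hX hz) (Dc0_isUnit _) b c

/-- the pattern with the diagonal -/
def patc0 (b c : Fin 8) : Bool := b == c || pat0 b c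

theorem Mt_patc {a p q : ℂ} {b c : Fin 8} (h : patc0 b c = false) : Mt a p q b c = 0 := by
  unfold patc0 at h
  rw [Bool.or_eq_false_iff] at h
  exact Mt_zero a p q (by simpa using h.1) h.2

/-- **zero pattern, upper cell to disc** -/
theorem zero_up (hX : YD X) {z : ℂ} (hz : z ∈ OmP) (hv : z ∈ V0) {b c : Fin 8}
    (h : patc0 b c = false) : (frm (Pz X z) BF4z b ᵥ* (Dc0 (t0 z))⁻¹) c = 0 := by
  rw [(ent_c0 hX hz hv b c).1]
  exact Mt_patc h

/-- **zero pattern, disc to upper cell** -/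
theorem zero_dn (hX : YD X) {z : ℂ} (hz : z ∈ OmP) (hv : z ∈ V0) {b c : Fin 8}
    (h : patc0 b c = false) : (Dc0 (t0 z) b ᵥ* (frm (Pz X z) BF4z)⁻¹) c = 0 := by
  rw [(ent_c0 hX hz hv b c).2]
  exact Mt_patc h

/-! ### the mirror cell -/

theorem frm_Pm' (B : Matrix (Fin 8) (Fin 8) ℂ) (z : ℂ) :
    frm (Pm' X z) (cj B) = cj (frm (Pz X (conj z)) B) := frm_cj _ _

/-- **factorisation of the mirror frame** -/
theorem up_c0' (hX : YD X) {z : ℂ} (hz : conj z ∈ OmP) (hv : z ∈ V0) :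
    cj (frm (Pz X (conj z)) BF4z) =
      cj (M0 (TY 0 (yz (conj z))) (t0 (conj z))) * Dc0 (t0 z) := by
  rw [up_c0 hX hz (conj_mem_V0.2 hv), cj_mul, t0_conj, Dc0_cj]

theorem cjF4z_isUnit (hX : YD X) {z : ℂ} (hz : conj z ∈ OmP) :
    IsUnit (cj (frm (Pz X (conj z)) BF4z)).det := by
  refine Unitri.isUnit ?_
  obtain ⟨h1, h2⟩ := frm_unitri (Pz_adap hX hz) cst_BF4z
  exact ⟨fun b c hbc => by rw [cj_apply, h1 b c hbc, map_zero],
    fun b => by rw [cj_apply, h2 b, map_one]⟩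

theorem ent_c0' (hX : YD X) {z : ℂ} (hz : conj z ∈ OmP) (hv : z ∈ V0) (b c : Fin 8) :
    (cj (frm (Pz X (conj z)) BF4z) b ᵥ* (Dc0 (t0 z))⁻¹) c =
        conj (M0 (TY 0 (yz (conj z))) (t0 (conj z)) b c) ∧
      (Dc0 (t0 z) b ᵥ* (cj (frm (Pz X (conj z)) BF4z))⁻¹) c =
        conj (M0' (TY 0 (yz (conj z))) (t0 (conj z)) b c) := by
  have h := up_c0' hX hz hv
  unfold M0 at h
  rw [cj_Mt] at h
  have h2 := trans_of_Mt h (cjF4z_isUnit hX hz) (Dc0_isUnit _) b c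
  refine ⟨h2.1.trans ?_, h2.2.trans ?_⟩
  · rw [← cj_Mt]; rfl
  · simp only [← map_neg]
    rw [← cj_Mt]
    rfl

theorem zero_up' (hX : YD X) {z : ℂ} (hz : conj z ∈ OmP) (hv : z ∈ V0) {b c : Fin 8}
    (h : patc0 b c = false) :
    (cj (frm (Pz X (conj z)) BF4z) b ᵥ* (Dc0 (t0 z))⁻¹) c = 0 := by
  rw [(ent_c0' hX hz hv b c).1, M0, Mt_patc h, map_zero]

theorem zero_dn' (hX : YD X) {z : ℂ} (hz : conj z ∈ OmP) (hv : z ∈ V0) {b c : Fin 8}
    (h : patc0 b c = false) :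
    (Dc0 (t0 z) b ᵥ* (cj (frm (Pz X (conj z)) BF4z))⁻¹) c = 0 := by
  rw [(ent_c0' hX hz hv b c).2, M0', Mt_patc h, map_zero]

/-! ### the four group totals at `c0` -/

theorem tot_z1 (t : ℂ) : yc (tupC .z1 t + l2 • tupC .zl t) = Dc0 t 0 := by
  funext j
  rw [Dc0_lt (by decide), Fin.sum_univ_eight]
  simp [BR0, ad, gl0]

theorem tot_zl (t : ℂ) : yc (tupC .zl t) = Dc0 t 1 := by
  funext j
  rw [Dc0_lt (by decide), Fin.sum_univ_eight]
  simp [BR0, ad, gl0]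

theorem tot_zab (t : ℂ) : yc (tupC .zab t) = Dc0 t 3 := by
  funext j
  rw [Dc0_lt (by decide), Fin.sum_univ_eight]
  fin_cases j <;>
    simp [BR0, ad, gl0, yc, tupC, Vale.Agent.P030.T.tup0, Vale.Agent.P030.T.tup1, evq_zero,
      evq_one, dv]

theorem tot_z8 {t : ℂ} (ht : ‖t‖ < 1) : yc (tupC .z8 t) = (2 / pc * kp0 t) • Dc0 t 6 := by
  have hp := pc_ne
  have h6 : kp0 t ≠ 0 := kp0_ne ht
  have e : kp0 t = pc / 2 * tupC .z8 t 6 := by simp [kp0, gl0]
  have e7 : gl0 0 t 6 7 = pc / 2 * tupC .z8 t 7 := by simp [gl0]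
  have e6 : gl0 0 t 6 6 = kp0 t := rfl
  have h0 : ∀ j : Fin 8, j < 6 → tupC .z8 t j = 0 := by
    intro j hj
    rcases fin6 hj with rfl | rfl | rfl | rfl | rfl | rfl <;>
      simp [tupC, Vale.Agent.P030.T.tup0, Vale.Agent.P030.T.tup1, evq_zero]
  have a0 := h0 0 (by decide)
  have a1 := h0 1 (by decide)
  have a2 := h0 2 (by decide)
  have a3 := h0 3 (by decide)
  have a4 := h0 4 (by decide)
  have a5 := h0 5 (by decide)
  have hne : tupC .z8 t 6 ≠ 0 := by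
    intro h; rw [h, mul_zero] at e; exact h6 e
  funext j
  rw [Dc0_six, e7, e6, e]
  fin_cases j <;> simp [yc, a0, a1, a2, a3, a4, a5] <;> field_simp

end

end Vale.Agent.P030.H992
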